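import Vale.Agent.P067.Final
import Vale.Agent.P067.Thin
import Vale.Agent.P067.TopCohom

namespace Vale.Agent.Results.P067.AllThree

open Vale.Agent.P067

/-- Three facts on coboundary expanders over `ZMod 2` in every dimension `d ≥ 1`.
1. Existence with degree an arbitrarily small power of the number `N` of vertices: for every
   `c > 0` there is `ε > 0` and there are arbitrarily large finite connected pure `d`-dimensional
   `ε`-coboundary expanders in which every vertex lies in at most `N ^ c` faces of dimension `d`.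
2. Bounded degree forces top cohomology: pure `d`-dimensional `ε`-coboundary expanders of degree
   at most `D` in which every `d`-cochain is a coboundary have a bounded number of vertices.
3. Thin regions are small: if all `(d-1)`-faces of all `d`-faces in the dual ball of radius `L`
   around a `d`-face lie in exactly two `d`-faces and the dual ball of radius `L + 1` is strictly
   larger, then `ε * (L + 1) ≤ d + 1`. -/
theorem result (d : ℕ) (hd : 1 ≤ d) :
    (∀ c : ℝ, 0 < c →
      ∃ ε : ℝ, 0 < ε ∧ ∀ n : ℕ, ∃ (V : Type) (_ : Fintype V) (X : AbstractSimplicialComplex V),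
        n ≤ Fintype.card V ∧ IsPure X d ∧ (graph X).Connected ∧ IsCobExp X d ε ∧
        ∀ v : V, (deg X d {v} : ℝ) ≤ (Fintype.card V : ℝ) ^ c) ∧
    (∀ (D : ℕ) (ε : ℝ), 0 < ε →
      ∃ N0 : ℕ, ∀ (V : Type) [Fintype V] (X : AbstractSimplicialComplex V),
        IsPure X d → DegLE X d D → IsCobExp X d ε →
        (∀ h : Finset V → ZMod 2, IsCobdry X d h) → Fintype.card V ≤ N0) ∧
    (∀ (V : Type) [Fintype V] (X : AbstractSimplicialComplex V) (ε : ℝ), IsCobExp X d ε →
      ∀ τ0 ∈ F X d, ∀ L : ℕ,
        (∀ τ ∈ dualBall X d τ0 L, ∀ σ ∈ F X (d - 1), σ ⊆ τ → deg X d σ = 2) →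
        dualBall X d τ0 (L + 1) ≠ dualBall X d τ0 L →
        ε * ((L : ℝ) + 1) ≤ (d : ℝ) + 1) := by
  obtain ⟨e, rfl⟩ : ∃ e, d = e + 1 := ⟨d - 1, by omega⟩
  refine ⟨fun c hc => subpoly_degree (e + 1) hd c hc, fun D ε hε => top_cohomology e D ε hε, ?_⟩
  intro V _ X ε hexp τ0 h0 L thin grow
  have h := thin_ball X e ε hexp τ0 h0 L thin grow
  push_cast
  linarith

end Vale.Agent.Results.P067.AllThree
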