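import Vale.Agent.P067.Final

namespace Vale.Agent.Results.P067.SubpolyDegree

open Vale.Agent.P067

/-- Coboundary expanders of every dimension whose degree is an arbitrarily small power of the number
of vertices.  For every dimension `d ≥ 1` and every exponent `c > 0` there is `ε > 0` and there are
arbitrarily large finite connected pure `d`-dimensional simplicial complexes which are
`ε`-coboundary expanders over `ZMod 2` and in which every vertex lies in at most `N ^ c` faces of
dimension `d`, where `N` is the number of vertices.  (The complexes are the barycentric
subdivisions of the `d`-skeleta of products of `k` simplices, `k` of order `d / c`.) -/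
theorem result (d : ℕ) (hd : 1 ≤ d) (c : ℝ) (hc : 0 < c) :
    ∃ ε : ℝ, 0 < ε ∧ ∀ n : ℕ, ∃ (V : Type) (_ : Fintype V) (X : AbstractSimplicialComplex V),
      n ≤ Fintype.card V ∧ IsPure X d ∧ (graph X).Connected ∧ IsCobExp X d ε ∧
      ∀ v : V, (deg X d {v} : ℝ) ≤ (Fintype.card V : ℝ) ^ c :=
  subpoly_degree d hd c hc

end Vale.Agent.Results.P067.SubpolyDegree
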