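import Vale.Agent.P067.Thin

namespace Vale.Agent.Results.P067.ThinBall

open Vale.Agent.P067

/-- Thin regions obstruct coboundary expansion.  Let `X` be an `ε`-coboundary expander of dimension
`d = e + 1` and `τ0` a `d`-face.  If every `(d-1)`-face of every `d`-face in the dual ball of radius
`L` around `τ0` lies in exactly two `d`-faces, and the dual ball of radius `L + 1` is strictly
larger, then `ε * (L + 1) ≤ d + 1`. -/
theorem result {V : Type} [Fintype V] (X : AbstractSimplicialComplex V) (e : ℕ) (ε : ℝ)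
    (hexp : IsCobExp X (e + 1) ε) (τ0 : Finset V) (h0 : τ0 ∈ F X (e + 1)) (L : ℕ)
    (thin : ∀ τ ∈ dualBall X (e + 1) τ0 L, ∀ σ ∈ F X e, σ ⊆ τ → deg X (e + 1) σ = 2)
    (grow : dualBall X (e + 1) τ0 (L + 1) ≠ dualBall X (e + 1) τ0 L) :
    ε * ((L : ℝ) + 1) ≤ (e : ℝ) + 2 :=
  thin_ball X e ε hexp τ0 h0 L thin grow

end Vale.Agent.Results.P067.ThinBall
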