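import Vale.Agent.P067.TopCohom

namespace Vale.Agent.Results.P067.TopCohomology

open Vale.Agent.P067

/-- Bounded-degree coboundary expanders cannot be acyclic in the top dimension.  For every dimension
`d = e + 1`, degree bound `D` and `ε > 0` there is `N0` such that a pure `d`-dimensional complex of
degree at most `D` which is an `ε`-coboundary expander and in which every `d`-cochain is a
coboundary (that is, the top cohomology group with coefficients in `ZMod 2` vanishes) has at most
`N0` vertices. -/
theorem result (e D : ℕ) (ε : ℝ) (hε : 0 < ε) :
    ∃ N0 : ℕ, ∀ (V : Type) [Fintype V] (X : AbstractSimplicialComplex V),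
      IsPure X (e + 1) → DegLE X (e + 1) D → IsCobExp X (e + 1) ε →
      (∀ h : Finset V → ZMod 2, IsCobdry X (e + 1) h) → Fintype.card V ≤ N0 :=
  top_cohomology e D ε hε

end Vale.Agent.Results.P067.TopCohomology
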